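import Mathlib

/-!
# S0453 (helper17): class averages on a finite set and their localisation to fibres

`cls Φ ℓ x` is the class of `x` inside the finite set `Φ` for the key function `ℓ`,
`avg Φ ℓ f x` the average of `f` over that class, `bad Φ ℓ P χ f` the "Bad" term of the two-pair
lemma (`∑` over the classes `K` whose elements satisfy `P` of `|K| Cov_K(f,χ)² / π_K`, written as a
sum over elements).  If a coarser key `lam` is constant on `ℓ`-classes then all of these can be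
computed inside the `lam`-fibres.
-/

set_option autoImplicit false

namespace Crest.Agent.Helper17.SW

open Finset

variable {X L L' Λ : Type*} [DecidableEq L] [DecidableEq L'] [DecidableEq Λ]

/-- the class of `x` in `Φ` for the key `ℓ`. -/
def cls (Φ : Finset X) (ℓ : X → L) (x : X) : Finset X := Φ.filter fun y => ℓ y = ℓ x

lemma mem_cls {Φ : Finset X} {ℓ : X → L} {x y : X} : y ∈ cls Φ ℓ x ↔ y ∈ Φ ∧ ℓ y = ℓ x := by
  simp [cls]

lemma self_mem_cls {Φ : Finset X} {ℓ : X → L} {x : X} (hx : x ∈ Φ) : x ∈ cls Φ ℓ x :=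
  mem_cls.2 ⟨hx, rfl⟩

lemma cls_subset (Φ : Finset X) (ℓ : X → L) (x : X) : cls Φ ℓ x ⊆ Φ := Finset.filter_subset _ _

lemma cls_eq_of_key_eq {Φ : Finset X} {ℓ : X → L} {x y : X} (h : ℓ x = ℓ y) :
    cls Φ ℓ x = cls Φ ℓ y := by
  ext z; simp [mem_cls, h]

/-- the average of `f` over the class of `x`. -/
noncomputable def avg (Φ : Finset X) (ℓ : X → L) (f : X → ℝ) (x : X) : ℝ :=
  (∑ y ∈ cls Φ ℓ x, f y) / ((cls Φ ℓ x).card : ℝ)

/-- the summand of the Bad term at `x`. -/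
noncomputable def badTerm (Φ : Finset X) (ℓ : X → L) (χ : X → Prop) [DecidablePred χ]
    (f : X → ℝ) (x : X) : ℝ :=
  (((cls Φ ℓ x).card : ℝ) * (∑ y ∈ (cls Φ ℓ x).filter χ, f y) -
      (((cls Φ ℓ x).filter χ).card : ℝ) * ∑ y ∈ cls Φ ℓ x, f y) ^ 2 /
    (((cls Φ ℓ x).card : ℝ) ^ 3 * (((cls Φ ℓ x).filter χ).card : ℝ))

/-- the Bad term: sum over the classes `K` of `ℓ` consisting of points with `P` of
`|K| Cov_K(f,χ)² / π_K`, written as a sum over the elements of these classes. -/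
noncomputable def bad (Φ : Finset X) (ℓ : X → L) (P χ : X → Prop) [DecidablePred P]
    [DecidablePred χ] (f : X → ℝ) : ℝ :=
  ∑ x ∈ Φ.filter P, badTerm Φ ℓ χ f x

lemma bad_eq_sum_ite (Φ : Finset X) (ℓ : X → L) (P χ : X → Prop) [DecidablePred P]
    [DecidablePred χ] (f : X → ℝ) :
    bad Φ ℓ P χ f = ∑ x ∈ Φ, if P x then badTerm Φ ℓ χ f x else 0 := by
  rw [bad, Finset.sum_filter]

/-- classes do not change if the key is replaced by an equivalent one. -/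
lemma cls_congr {Φ : Finset X} {ℓ : X → L} {ℓ' : X → L'} {x : X} (hx : x ∈ Φ)
    (h : ∀ y ∈ Φ, ℓ y = ℓ x ↔ ℓ' y = ℓ' x) : cls Φ ℓ x = cls Φ ℓ' x := by
  ext y
  simp only [mem_cls]
  constructor
  · rintro ⟨hy, hyx⟩; exact ⟨hy, (h y hy).1 hyx⟩
  · rintro ⟨hy, hyx⟩; exact ⟨hy, (h y hy).2 hyx⟩

/-- **Localisation.** If the coarser key `lam` is constant on the classes of `ℓ` (inside `Ω`), the
class of `x ∈ Ω` can be computed inside the `lam`-fibre of `x`. -/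
lemma cls_cls {Ω : Finset X} {ℓ : X → L} {lam : X → Λ}
    (h : ∀ x ∈ Ω, ∀ y ∈ Ω, ℓ x = ℓ y → lam x = lam y) {x0 x : X} (hx : x ∈ cls Ω lam x0) :
    cls (cls Ω lam x0) ℓ x = cls Ω ℓ x := by
  obtain ⟨hxΩ, hxl⟩ := mem_cls.1 hx
  ext y
  simp only [mem_cls]
  constructor
  · rintro ⟨⟨hy, -⟩, hyx⟩; exact ⟨hy, hyx⟩
  · rintro ⟨hy, hyx⟩; exact ⟨⟨hy, (h y hy x hxΩ hyx).trans hxl⟩, hyx⟩

lemma avg_cls {Ω : Finset X} {ℓ : X → L} {lam : X → Λ}
    (h : ∀ x ∈ Ω, ∀ y ∈ Ω, ℓ x = ℓ y → lam x = lam y) (f : X → ℝ) {x0 x : X}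
    (hx : x ∈ cls Ω lam x0) : avg (cls Ω lam x0) ℓ f x = avg Ω ℓ f x := by
  rw [avg, avg, cls_cls h hx]

lemma badTerm_cls {Ω : Finset X} {ℓ : X → L} {lam : X → Λ}
    (h : ∀ x ∈ Ω, ∀ y ∈ Ω, ℓ x = ℓ y → lam x = lam y) (χ : X → Prop) [DecidablePred χ]
    (f : X → ℝ) {x0 x : X} (hx : x ∈ cls Ω lam x0) :
    badTerm (cls Ω lam x0) ℓ χ f x = badTerm Ω ℓ χ f x := by
  rw [badTerm, badTerm, cls_cls h hx]

/-- the Bad term only depends on the restrictions of `P`, `χ` to `Φ`. -/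
lemma bad_congr {Φ : Finset X} {ℓ : X → L} {P P' χ χ' : X → Prop} [DecidablePred P]
    [DecidablePred P'] [DecidablePred χ] [DecidablePred χ'] (hP : ∀ x ∈ Φ, P x ↔ P' x)
    (hχ : ∀ x ∈ Φ, χ x ↔ χ' x) (f : X → ℝ) : bad Φ ℓ P χ f = bad Φ ℓ P' χ' f := by
  rw [bad, bad, Finset.filter_congr hP]
  refine Finset.sum_congr rfl fun x _ => ?_
  have : (cls Φ ℓ x).filter χ = (cls Φ ℓ x).filter χ' :=
    Finset.filter_congr fun y hy => hχ y (cls_subset _ _ _ hy)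
  rw [badTerm, badTerm, this]

/-- **Summation over fibres.** -/
lemma sum_le_sum_of_fibrewise (Ω : Finset X) (lam : X → Λ) (s t : X → ℝ)
    (h : ∀ x0 ∈ Ω, ∑ x ∈ cls Ω lam x0, s x ≤ ∑ x ∈ cls Ω lam x0, t x) :
    ∑ x ∈ Ω, s x ≤ ∑ x ∈ Ω, t x := by
  classical
  rw [← Finset.sum_fiberwise_of_maps_to (g := lam) (t := Ω.image lam)
      (fun x hx => Finset.mem_image_of_mem _ hx) s,
    ← Finset.sum_fiberwise_of_maps_to (g := lam) (t := Ω.image lam)
      (fun x hx => Finset.mem_image_of_mem _ hx) t]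
  refine Finset.sum_le_sum fun φ hφ => ?_
  obtain ⟨x0, hx0, rfl⟩ := Finset.mem_image.1 hφ
  exact h x0 hx0

end Crest.Agent.Helper17.SW
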