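import Crest.Agent.Helper17.SW.Avg

/-!
# S0453 (helper17): the abstract two-pair statements in transport form

The graph side (the fibres of two disjoint vertex pairs, `Crest.Agent.Helper67.SW.TwoPairFibre`)
provides, on each fibre `Φ`, coordinates `(M, A, C)` with `M` the `2 × 2` block
`(au, av, bu, bv)`; `Coords` records exactly what is known about them.  `ProdStmt` (block sum
`≠ 2`) and `DiaStmt` (block sum `2`, the diamond) are the two abstract inequalities consumed by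
the integration `TplGraph.lean`; they are `Prop`s here (no proof in this file).

Mathlib only.
-/

set_option autoImplicit false

namespace Crest.Agent.Helper17.SW

open Finset

/-- the `2 × 2` block `(au, av, bu, bv)`. -/
abbrev Blk4 := Bool × Bool × Bool × Bool

namespace Blk4

/-- number of block edges at `a` (row sum). -/
def rho (M : Blk4) : ℕ := (if M.1 then 1 else 0) + (if M.2.1 then 1 else 0)

/-- number of block edges at `u` (column sum). -/
def kap (M : Blk4) : ℕ := (if M.1 then 1 else 0) + (if M.2.2.1 then 1 else 0)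

/-- number of block edges. -/
def tot (M : Blk4) : ℕ :=
  (if M.1 then 1 else 0) + (if M.2.1 then 1 else 0) + (if M.2.2.1 then 1 else 0)
    + (if M.2.2.2 then 1 else 0)

/-- the centre state `{au, bv}`. -/
def cp : Blk4 := (true, false, false, true)

/-- the centre state `{av, bu}`. -/
def cm : Blk4 := (false, true, true, false)

/-- the block is a permutation matrix. -/
def ctr (M : Blk4) : Prop := M = cp ∨ M = cm

instance : DecidablePred ctr := fun M => by unfold ctr; infer_instance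

end Blk4

section

variable {X L L' 𝒜 𝒞 : Type*} [DecidableEq L] [DecidableEq L']

/-- **Coordinates of a two-pair fibre** `Φ`: `ℓ`, `ℓ'` are the keys of the two class relations
(`~_{ab}`, `~_{uv}`), `M` the block, `A`, `C` the two remaining coordinates, `m` the block sum of
the fibre; the states of `Φ` correspond bijectively to the triples `(μ, a, c)` with `μ.tot = m`,
`a ∈ As μ.rho`, `c ∈ Cs μ.kap` (any of these sets may be empty). -/
structure Coords (Φ : Finset X) (ℓ : X → L) (ℓ' : X → L') (M : X → Blk4) (A : X → 𝒜)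
    (C : X → 𝒞) (m : ℕ) (As : ℕ → Finset 𝒜) (Cs : ℕ → Finset 𝒞) : Prop where
  key : ∀ x ∈ Φ, ∀ y ∈ Φ, ℓ x = ℓ y ↔ ((M x).kap = (M y).kap ∧ C x = C y)
  key' : ∀ x ∈ Φ, ∀ y ∈ Φ, ℓ' x = ℓ' y ↔ ((M x).rho = (M y).rho ∧ A x = A y)
  inj : ∀ x ∈ Φ, ∀ y ∈ Φ, M x = M y → A x = A y → C x = C y → x = y
  img : ∀ μ a c, (∃ x ∈ Φ, M x = μ ∧ A x = a ∧ C x = c) ↔
    (μ.tot = m ∧ a ∈ As μ.rho ∧ c ∈ Cs μ.kap)

/-- the Bad term in the normal form of `Crest.Agent.Helper10.S0453.Bad`: sum over the points `x`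
with `P` of `(E[f | class of x, P] - E[f | class of x])²`. -/
noncomputable def badC (Φ : Finset X) (ℓ : X → L) (P : X → Prop) [DecidablePred P]
    (f : X → ℝ) : ℝ :=
  ∑ x ∈ Φ.filter P,
    ((∑ y ∈ (cls Φ ℓ x).filter P, f y) / (((cls Φ ℓ x).filter P).card : ℝ) - avg Φ ℓ f x) ^ 2

/-- the switch energy of a fibre: pairs (`cp`-state, `cm`-state) with the same `A`, `C`. -/
noncomputable def swC [DecidableEq 𝒜] [DecidableEq 𝒞] (Φ : Finset X) (M : X → Blk4) (A : X → 𝒜)
    (C : X → 𝒞) (f : X → ℝ) : ℝ :=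
  ∑ x ∈ Φ, ∑ y ∈ Φ,
    if M x = Blk4.cp ∧ M y = Blk4.cm ∧ A y = A x ∧ C y = C x then (f x - f y) ^ 2 else 0

end

/-- **(E2a) in transport form**: on a fibre with block sum `≠ 2` the two averaging operators
commute, so `⟨R f, R' f⟩ ≥ 0`. -/
def ProdStmt : Prop :=
  ∀ (X L L' 𝒜 𝒞 : Type) [DecidableEq L] [DecidableEq L'] (Φ : Finset X) (ℓ : X → L)
    (ℓ' : X → L') (M : X → Blk4) (A : X → 𝒜) (C : X → 𝒞) (m : ℕ) (As : ℕ → Finset 𝒜)
    (Cs : ℕ → Finset 𝒞), m ≠ 2 → Coords Φ ℓ ℓ' M A C m As Cs → ∀ f : X → ℝ,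
      0 ≤ ∑ x ∈ Φ, (f x - avg Φ ℓ f x) * (f x - avg Φ ℓ' f x)

/-- **(E2b) in transport form**: the two-pair lemma on a diamond fibre (block sum `2`). -/
def DiaStmt : Prop :=
  ∀ (X L L' 𝒜 𝒞 : Type) [DecidableEq L] [DecidableEq L'] [DecidableEq 𝒜] [DecidableEq 𝒞]
    (Φ : Finset X) (ℓ : X → L) (ℓ' : X → L') (M : X → Blk4) (A : X → 𝒜) (C : X → 𝒞)
    (As : ℕ → Finset 𝒜) (Cs : ℕ → Finset 𝒞), Coords Φ ℓ ℓ' M A C 2 As Cs → ∀ f : X → ℝ,
      swC Φ M A C f - badC Φ ℓ (fun x => (M x).ctr) f - badC Φ ℓ' (fun x => (M x).ctr) f ≤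
        2 * ∑ x ∈ Φ, (f x - avg Φ ℓ f x) * (f x - avg Φ ℓ' f x)

end Crest.Agent.Helper17.SW
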