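import Crest.Agent.Helper10.S0453.DPApi
import Crest.Agent.Helper67.SW.TwoPairFibre
import Crest.Agent.Helper17.SW.TwoPairSpec

/-!
# S0453 (helper17): the two-pair lemma on the graph model, `TPLGraph d f`

Integration of
* helper67's fibre coordinates of two disjoint vertex pairs (`Helper67/SW/TwoPairFibre.lean`),
* the abstract two-pair statements `ProdStmt`, `DiaStmt` (`Helper17/SW/TwoPairSpec.lean`),
* helper10's pair interface (`Helper10/S0453/DP.lean`, `DPApi.lean`),
by localisation to the fibres of `q.key` (`Helper17/SW/Avg.lean`).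

Main result: `tplGraph_of : ProdStmt → DiaStmt → ∀ d f, TPLGraph d f`.
-/

set_option autoImplicit false

namespace Crest.Agent.Helper17.SWT

open Finset Crest.SwitchChain Crest.Agent.Helper65.Switch Crest.Agent.Helper10.S0453
open Crest.Agent.Helper67.SW

variable {n : ℕ}

/-- the `Quad` of a `D4`-tuple. -/
def quad {a b c e : Fin n} (h : D4 a b c e) : Quad n :=
  ⟨a, b, c, e, h.1, h.2.1, h.2.2.1, h.2.2.2.1, h.2.2.2.2.1, h.2.2.2.2.2⟩

/-! ### dictionary between helper10's and helper67's objects -/

section dict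

variable {a b c e : Fin n} (h : D4 a b c e) (G : Finset (Edge n))

lemma blk_iff :
    (((quad h).blk G).1 = true ↔ adj G a c) ∧ (((quad h).blk G).2.1 = true ↔ adj G a e) ∧
      (((quad h).blk G).2.2.1 = true ↔ adj G b c) ∧ (((quad h).blk G).2.2.2 = true ↔ adj G b e) :=
  ⟨((quad h).blk_fst G).trans (adj_iff h.2.1).symm,
    ((quad h).blk_snd G).trans (adj_iff h.2.2.1).symm,
    ((quad h).blk_trd G).trans (adj_iff h.2.2.2.1).symm,
    ((quad h).blk_fth G).trans (adj_iff h.2.2.2.2.1).symm⟩

lemma swAt_iff : SwAt G a b c e ↔ (quad h).blk G = Blk.cp := by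
  obtain ⟨k1, k2, k3, k4⟩ := blk_iff h G
  unfold SwAt
  rw [← k1, ← k4, ← k2, ← k3]
  generalize (quad h).blk G = M
  obtain ⟨b1, b2, b3, b4⟩ := M
  cases b1 <;> cases b2 <;> cases b3 <;> cases b4 <;> simp [Blk.cp]

lemma swAt_iff' : SwAt G a b e c ↔ (quad h).blk G = Blk.cm := by
  obtain ⟨k1, k2, k3, k4⟩ := blk_iff h G
  unfold SwAt
  rw [← k1, ← k4, ← k2, ← k3]
  generalize (quad h).blk G = M
  obtain ⟨b1, b2, b3, b4⟩ := M
  cases b1 <;> cases b2 <;> cases b3 <;> cases b4 <;> simp [Blk.cm]

lemma split_iff_ctr : Split G a b c e ↔ SW.Blk4.ctr ((quad h).blk G) := by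
  unfold Split SW.Blk4.ctr
  rw [swAt_iff h, swAt_iff' h]
  rfl

lemma split_swap_iff_ctr : Split G c e a b ↔ SW.Blk4.ctr ((quad h).blk G) := by
  rw [← split_swap, split_iff_ctr h]

end dict

/-! ### the fibres of `key` -/

section fibre

variable {a b c e : Fin n} (h : D4 a b c e) {d : Fin n → ℕ}

/-- the key is constant on the classes of `{a, b}`. -/
lemma key_of_offU_left {x y : Finset (Edge n)} (hx : x ∈ realizations d)
    (hy : y ∈ realizations d) (hxy : offU {a, b} x = offU {a, b} y) :
    (quad h).key x = (quad h).key y :=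
  (((quad h).offP_eq_iff hy hx).1 hxy).1

/-- the key is constant on the classes of `{c, e}`. -/
lemma key_of_offU_right {x y : Finset (Edge n)} (hx : x ∈ realizations d)
    (hy : y ∈ realizations d) (hxy : offU {c, e} x = offU {c, e} y) :
    (quad h).key x = (quad h).key y :=
  (((quad h).offQ_eq_iff hy hx).1 hxy).1

/-- the coordinates `(blk, partA, partC)` on a fibre of `key`. -/
lemma coords {G0 : Finset (Edge n)} (hG0 : G0 ∈ realizations d) :
    SW.Coords (SW.cls (realizations d) (quad h).key G0) (offU {a, b}) (offU {c, e})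
      (quad h).blk (quad h).partA (quad h).partC ((quad h).blk G0).tot
      ((quad h).As d G0) ((quad h).Cs d G0) := by
  refine ⟨?_, ?_, ?_, ?_⟩
  · intro x hx y hy
    obtain ⟨hxΩ, hxk⟩ := SW.mem_cls.1 hx
    obtain ⟨hyΩ, hyk⟩ := SW.mem_cls.1 hy
    have hk : (quad h).key x = (quad h).key y := hxk.trans hyk.symm
    have key := (quad h).offP_eq_iff hyΩ hxΩ
    constructor
    · intro hxy
      have h2 := (key.1 hxy).2
      refine ⟨?_, h2⟩
      have e1 := (quad h).deg_u x
      have e2 := (quad h).deg_u y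
      rw [mem_realizations] at hxΩ hyΩ
      rw [hxΩ, h2] at e1
      rw [hyΩ] at e2
      show ((quad h).blk x).kap = ((quad h).blk y).kap
      omega
    · rintro ⟨-, hC⟩
      exact key.2 ⟨hk, hC⟩
  · intro x hx y hy
    obtain ⟨hxΩ, hxk⟩ := SW.mem_cls.1 hx
    obtain ⟨hyΩ, hyk⟩ := SW.mem_cls.1 hy
    have hk : (quad h).key x = (quad h).key y := hxk.trans hyk.symm
    have key := (quad h).offQ_eq_iff hyΩ hxΩ
    constructor
    · intro hxy
      have h2 := (key.1 hxy).2
      refine ⟨?_, h2⟩
      have e1 := (quad h).deg_a x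
      have e2 := (quad h).deg_a y
      rw [mem_realizations] at hxΩ hyΩ
      rw [hxΩ, h2] at e1
      rw [hyΩ] at e2
      show ((quad h).blk x).rho = ((quad h).blk y).rho
      omega
    · rintro ⟨-, hA⟩
      exact key.2 ⟨hk, hA⟩
  · intro x hx y hy hM hA hC
    exact (quad h).inj ((SW.mem_cls.1 hx).2.trans (SW.mem_cls.1 hy).2.symm) hM hA hC
  · intro μ A C
    have key := (quad h).image hG0 μ A C
    constructor
    · rintro ⟨x, hx, h1, h2, h3⟩
      exact key.1 ⟨x, (SW.mem_cls.1 hx).1, (SW.mem_cls.1 hx).2, h1, h2, h3⟩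
    · intro hh
      obtain ⟨x, hxΩ, hk, h1, h2, h3⟩ := key.2 hh
      exact ⟨x, SW.mem_cls.2 ⟨hxΩ, hk⟩, h1, h2, h3⟩

/-- the switch partner of a `cp`-state, in coordinates. -/
lemma flip_coords {G : Finset (Edge n)} (hG : G ∈ realizations d)
    (hcp : (quad h).blk G = Blk.cp) :
    flip a b c e G ∈ realizations d ∧ (quad h).key (flip a b c e G) = (quad h).key G ∧
      (quad h).blk (flip a b c e G) = Blk.cm ∧
      (quad h).partA (flip a b c e G) = (quad h).partA G ∧
      (quad h).partC (flip a b c e G) = (quad h).partC G := by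
  have hsw : SwAt G a b c e := (swAt_iff h G).2 hcp
  have hmem := flip_mem_realizations h hG (Or.inl hsw)
  have h1 := ((quad h).offP_eq_iff hG hmem).1 (offU_flip_left a b c e G)
  have h2 := ((quad h).offQ_eq_iff hG hmem).1 (offU_flip_right a b c e G)
  exact ⟨hmem, h1.1, (swAt_iff' h _).1 ((swAt_flip h).2 hsw), h2.2, h1.2⟩

end fibre

/-! ### the summands -/

section summands

variable (d : Fin n → ℕ) (a b c e : Fin n) (f : Finset (Edge n) → ℝ)

lemma cls_eq_cls (U : Finset (Fin n)) (G : Finset (Edge n)) :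
    cls d U G = SW.cls (realizations d) (offU U) G := rfl

lemma Qavg_eq_avg (U : Finset (Fin n)) (G : Finset (Edge n)) :
    Qavg d U f G = SW.avg (realizations d) (offU U) f G := rfl

/-- the summand of `Sw`. -/
noncomputable def sSw (G : Finset (Edge n)) : ℝ := by
  classical exact if SwAt G a b c e then (f G - f (flip a b c e G)) ^ 2 else 0

/-- the summand of `Bad`. -/
noncomputable def sBad (G : Finset (Edge n)) : ℝ := by
  classical exact if Split G a b c e then
    ((∑ G' ∈ (cls d {a, b} G).filter (fun G' => Split G' a b c e), f G') /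
        (((cls d {a, b} G).filter (fun G' => Split G' a b c e)).card : ℝ)
      - Qavg d {a, b} f G) ^ 2 else 0

lemma Sw_eq_sum : Sw d a b c e f = ∑ G ∈ realizations d, sSw a b c e f G := by
  classical
  rw [Sw_def, Finset.sum_filter]
  rfl

lemma Bad_eq_sum : Bad d a b c e f = ∑ G ∈ realizations d, sBad d a b c e f G := by
  classical
  rw [Bad_def, Finset.sum_filter]
  rfl

lemma sBad_nonneg (G : Finset (Edge n)) : 0 ≤ sBad d a b c e f G := by
  classical
  unfold sBad
  split_ifs
  · exact sq_nonneg _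
  · exact le_rfl

end summands

/-! ### fibre-local forms -/

section local_forms

variable {a b c e : Fin n} (h : D4 a b c e) (d : Fin n → ℕ) (f : Finset (Edge n) → ℝ)
  {G0 : Finset (Edge n)}

/-- the `Rop`-term on a fibre. -/
lemma sum_rop_fibre :
    ∑ x ∈ SW.cls (realizations d) (quad h).key G0,
        2 * (Rop d {a, b} f x * Rop d {c, e} f x) =
      2 * ∑ x ∈ SW.cls (realizations d) (quad h).key G0,
        (f x - SW.avg (SW.cls (realizations d) (quad h).key G0) (offU {a, b}) f x) *
          (f x - SW.avg (SW.cls (realizations d) (quad h).key G0) (offU {c, e}) f x) := by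
  rw [Finset.mul_sum]
  refine Finset.sum_congr rfl fun x hx => ?_
  rw [Rop_def, Rop_def, Qavg_eq_avg, Qavg_eq_avg,
    SW.avg_cls (fun x hx y hy => key_of_offU_left h hx hy) f hx,
    SW.avg_cls (fun x hx y hy => key_of_offU_right h hx hy) f hx]

/-- the `Bad`-term of `{a, b}` on a fibre. -/
lemma sum_sBad_fibre_left :
    ∑ x ∈ SW.cls (realizations d) (quad h).key G0, sBad d a b c e f x =
      SW.badC (SW.cls (realizations d) (quad h).key G0) (offU {a, b})
        (fun x => SW.Blk4.ctr ((quad h).blk x)) f := by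
  classical
  rw [SW.badC, Finset.sum_filter]
  refine Finset.sum_congr rfl fun x hx => ?_
  unfold sBad
  refine if_congr (split_iff_ctr h x) ?_ rfl
  rw [Qavg_eq_avg, cls_eq_cls,
    ← SW.avg_cls (fun x hx y hy => key_of_offU_left h hx hy) f hx,
    ← SW.cls_cls (fun x hx y hy => key_of_offU_left h hx hy) hx]
  have : (SW.cls (SW.cls (realizations d) (quad h).key G0) (offU {a, b}) x).filter
        (fun G' => Split G' a b c e) =
      (SW.cls (SW.cls (realizations d) (quad h).key G0) (offU {a, b}) x).filter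
        (fun y => SW.Blk4.ctr ((quad h).blk y)) :=
    Finset.filter_congr fun y _ => split_iff_ctr h y
  rw [this]

/-- the `Bad`-term of `{c, e}` on a fibre. -/
lemma sum_sBad_fibre_right :
    ∑ x ∈ SW.cls (realizations d) (quad h).key G0, sBad d c e a b f x =
      SW.badC (SW.cls (realizations d) (quad h).key G0) (offU {c, e})
        (fun x => SW.Blk4.ctr ((quad h).blk x)) f := by
  classical
  rw [SW.badC, Finset.sum_filter]
  refine Finset.sum_congr rfl fun x hx => ?_
  unfold sBad
  refine if_congr (split_swap_iff_ctr h x) ?_ rfl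
  rw [Qavg_eq_avg, cls_eq_cls,
    ← SW.avg_cls (fun x hx y hy => key_of_offU_right h hx hy) f hx,
    ← SW.cls_cls (fun x hx y hy => key_of_offU_right h hx hy) hx]
  have : (SW.cls (SW.cls (realizations d) (quad h).key G0) (offU {c, e}) x).filter
        (fun G' => Split G' c e a b) =
      (SW.cls (SW.cls (realizations d) (quad h).key G0) (offU {c, e}) x).filter
        (fun y => SW.Blk4.ctr ((quad h).blk y)) :=
    Finset.filter_congr fun y _ => split_swap_iff_ctr h y
  rw [this]

/-- the `Sw`-term on a fibre. -/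
lemma sum_sSw_fibre :
    ∑ x ∈ SW.cls (realizations d) (quad h).key G0, sSw a b c e f x =
      SW.swC (SW.cls (realizations d) (quad h).key G0) (quad h).blk (quad h).partA
        (quad h).partC f := by
  classical
  rw [SW.swC]
  refine Finset.sum_congr rfl fun x hx => ?_
  obtain ⟨hxΩ, hxk⟩ := SW.mem_cls.1 hx
  unfold sSw
  by_cases hcp : (quad h).blk x = Blk.cp
  · rw [if_pos ((swAt_iff h x).2 hcp)]
    obtain ⟨f1, f2, f3, f4, f5⟩ := flip_coords h hxΩ hcp
    have hmem : flip a b c e x ∈ SW.cls (realizations d) (quad h).key G0 :=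
      SW.mem_cls.2 ⟨f1, f2.trans hxk⟩
    rw [Finset.sum_eq_single (flip a b c e x)]
    · rw [if_pos ⟨hcp, f3, f4, f5⟩]
    · intro y hy hne
      rw [if_neg]
      rintro ⟨-, g3, g4, g5⟩
      apply hne
      exact (quad h).inj ((SW.mem_cls.1 hy).2.trans (hxk.symm.trans f2.symm))
        (g3.trans f3.symm) (g4.trans f4.symm) (g5.trans f5.symm)
    · intro hnot
      exact absurd hmem hnot
  · rw [if_neg (fun hsw => hcp ((swAt_iff h x).1 hsw))]
    symm
    apply Finset.sum_eq_zero
    intro y _
    rw [if_neg]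
    rintro ⟨g1, -⟩
    exact hcp g1

end local_forms

/-! ### the two-pair lemma on the graph model -/

/-- **(TPL-graph)** from the abstract product and diamond statements. -/
theorem tplGraph_of (hP : SW.ProdStmt) (hD : SW.DiaStmt) (d : Fin n → ℕ)
    (f : Finset (Edge n) → ℝ) : TPLGraph d f := by
  intro a b c e h
  have e4 : 2 * IPair d f {a, b} {c, e} =
      ∑ G ∈ realizations d, 2 * (Rop d {a, b} f G * Rop d {c, e} f G) := by
    unfold IPair
    rw [Finset.mul_sum]
  rw [Sw_eq_sum, Bad_eq_sum, Bad_eq_sum, e4, ← Finset.sum_sub_distrib, ← Finset.sum_sub_distrib]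
  apply SW.sum_le_sum_of_fibrewise (realizations d) (quad h).key
  intro G0 hG0
  rw [Finset.sum_sub_distrib, Finset.sum_sub_distrib, sum_rop_fibre h d f, sum_sSw_fibre h d f,
    sum_sBad_fibre_left h d f, sum_sBad_fibre_right h d f]
  have hco := coords h hG0
  by_cases hm : ((quad h).blk G0).tot = 2
  · rw [hm] at hco
    exact hD _ _ _ _ _ _ _ _ _ _ _ _ _ hco f
  · have hsw : SW.swC (SW.cls (realizations d) (quad h).key G0) (quad h).blk (quad h).partA
        (quad h).partC f = 0 := by
      rw [SW.swC]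
      apply Finset.sum_eq_zero
      intro x hx
      apply Finset.sum_eq_zero
      intro y _
      rw [if_neg]
      rintro ⟨g1, -⟩
      apply hm
      have hk := ((quad h).key_eq_iff.1 (SW.mem_cls.1 hx).2).2.2
      rw [← hk, g1]
      rfl
    have hb1 : 0 ≤ SW.badC (SW.cls (realizations d) (quad h).key G0) (offU {a, b})
        (fun x => SW.Blk4.ctr ((quad h).blk x)) f :=
      Finset.sum_nonneg fun _ _ => sq_nonneg _
    have hb2 : 0 ≤ SW.badC (SW.cls (realizations d) (quad h).key G0) (offU {c, e})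
        (fun x => SW.Blk4.ctr ((quad h).blk x)) f :=
      Finset.sum_nonneg fun _ _ => sq_nonneg _
    have hp := hP _ _ _ _ _ _ _ _ _ _ _ _ _ _ hm hco f
    linarith

end Crest.Agent.Helper17.SWT
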